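import Mathlib

/-!
# P220, row R4: the unitary group is transitive on unitary pairs
-/

namespace Vale.Agent.P220.R2.H205

variable {V : Type} [NormedAddCommGroup V] [InnerProductSpace ℝ V]

/-- a complex reflection along `d` (and `J d`) -/
noncomputable def LL (J : V ≃ₗᵢ[ℝ] V) (d : V) (a b N : ℝ) : V →ₗ[ℝ] V where
  toFun z := z - ((a * inner ℝ d z + b * inner ℝ (J d) z) / N) • d -
    ((a * inner ℝ (J d) z - b * inner ℝ d z) / N) • J d
  map_add' z w := by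
    simp only [inner_add_right]
    module
  map_smul' c z := by
    simp only [inner_smul_right, RingHom.id_apply]
    module

theorem LL_apply (J : V ≃ₗᵢ[ℝ] V) (d : V) (a b N : ℝ) (z : V) :
    LL J d a b N z = z - ((a * inner ℝ d z + b * inner ℝ (J d) z) / N) • d -
      ((a * inner ℝ (J d) z - b * inner ℝ d z) / N) • J d := rfl

theorem inner_J {J : V ≃ₗᵢ[ℝ] V} (hJ : ∀ x, J (J x) = -x) (x y : V) :
    inner ℝ x (J y) = -(inner ℝ (J x) y : ℝ) := by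
  have h := J.inner_map_map x (J y)
  rw [hJ, inner_neg_right] at h
  exact h.symm

theorem inner_self_J {J : V ≃ₗᵢ[ℝ] V} (hJ : ∀ x, J (J x) = -x) (x : V) :
    inner ℝ (J x) x = (0 : ℝ) := by
  have h1 := inner_J hJ x x
  rw [real_inner_comm] at h1
  linarith

theorem LL_J {J : V ≃ₗᵢ[ℝ] V} (hJ : ∀ x, J (J x) = -x) (d : V) (a b N : ℝ) (z : V) :
    LL J d a b N (J z) = J (LL J d a b N z) := by
  rw [LL_apply, LL_apply, map_sub, map_sub, map_smul, map_smul, hJ, inner_J hJ d z,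
    J.inner_map_map]
  module

theorem LL_norm {J : V ≃ₗᵢ[ℝ] V} (hJ : ∀ x, J (J x) = -x) {d : V} {a b : ℝ}
    (hN : a ^ 2 + b ^ 2 ≠ 0) (hd : inner ℝ d d = 2 * a) (z : V) :
    ‖LL J d a b (a ^ 2 + b ^ 2) z‖ = ‖z‖ := by
  have h : ‖LL J d a b (a ^ 2 + b ^ 2) z‖ ^ 2 = ‖z‖ ^ 2 := by
    rw [← real_inner_self_eq_norm_sq, ← real_inner_self_eq_norm_sq, LL_apply]
    simp only [inner_sub_left, inner_sub_right, real_inner_smul_left, real_inner_smul_right,
      J.inner_map_map, inner_self_J hJ, real_inner_comm (J d) d, hd, real_inner_comm d z,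
      real_inner_comm (J d) z]
    generalize (inner ℝ z z : ℝ) = ζ
    generalize (inner ℝ z d : ℝ) = α
    generalize (inner ℝ z (J d) : ℝ) = β
    field_simp
    ring
  exact (sq_eq_sq₀ (norm_nonneg _) (norm_nonneg _)).1 h

theorem exists_refl [FiniteDimensional ℝ V] {J : V ≃ₗᵢ[ℝ] V} (hJ : ∀ x, J (J x) = -x) {x y : V}
    (hx : ‖x‖ = 1) (hy : ‖y‖ = 1) :
    ∃ g : V ≃ₗᵢ[ℝ] V, (∀ z, g (J z) = J (g z)) ∧ g x = y ∧
      ∀ z, inner ℝ (x - y) z = (0 : ℝ) → inner ℝ (J (x - y)) z = (0 : ℝ) → g z = z := by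
  by_cases hxy : x = y
  · exact ⟨LinearIsometryEquiv.refl ℝ V, fun _ => rfl, hxy, fun _ _ _ => rfl⟩
  · obtain ⟨d, hdd⟩ : ∃ d, d = x - y := ⟨_, rfl⟩
    obtain ⟨a, ha⟩ : ∃ a : ℝ, a = inner ℝ d x := ⟨_, rfl⟩
    obtain ⟨b, hb⟩ : ∃ b : ℝ, b = inner ℝ (J d) x := ⟨_, rfl⟩
    have h1 : (inner ℝ d d : ℝ) = 2 * a := by
      have e1 : (inner ℝ x x : ℝ) = 1 := by rw [real_inner_self_eq_norm_sq, hx, one_pow]
      have e2 : (inner ℝ y y : ℝ) = 1 := by rw [real_inner_self_eq_norm_sq, hy, one_pow]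
      rw [ha, hdd]
      simp only [inner_sub_left, inner_sub_right, e1, e2, real_inner_comm x y]
      ring
    have h2 : 0 < a := by
      have h3 : 0 < (inner ℝ d d : ℝ) := by
        rw [real_inner_self_eq_norm_sq]
        have : 0 < ‖d‖ := norm_pos_iff.2 (by rw [hdd]; exact sub_ne_zero.2 hxy)
        positivity
      linarith
    have hN : a ^ 2 + b ^ 2 ≠ 0 := by positivity
    let li : V →ₗᵢ[ℝ] V := ⟨LL J d a b (a ^ 2 + b ^ 2), LL_norm hJ hN h1⟩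
    refine ⟨li.toLinearIsometryEquiv rfl, fun z => ?_, ?_, fun z hz1 hz2 => ?_⟩
    · exact LL_J hJ d a b _ z
    · change LL J d a b (a ^ 2 + b ^ 2) x = y
      rw [LL_apply, ← ha, ← hb]
      have e1 : (a * a + b * b) / (a ^ 2 + b ^ 2) = 1 := by
        rw [← pow_two, ← pow_two]
        exact div_self hN
      have e2 : (a * b - b * a) / (a ^ 2 + b ^ 2) = 0 := by
        rw [mul_comm b a, sub_self, zero_div]
      rw [e1, e2, one_smul, zero_smul, sub_zero, hdd, sub_sub_cancel]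
    · change LL J d a b (a ^ 2 + b ^ 2) z = z
      rw [← hdd] at hz1 hz2
      rw [LL_apply, hz1, hz2]
      simp

/-- ROW R4 -/
theorem row_U {V : Type} [NormedAddCommGroup V] [InnerProductSpace ℝ V] [FiniteDimensional ℝ V]
    {J : V ≃ₗᵢ[ℝ] V} (hJ : ∀ x, J (J x) = -x) {e u e' u' : V}
    (he : ‖e‖ = 1) (hu : ‖u‖ = 1) (heu : inner ℝ e u = (0 : ℝ)) (heJ : inner ℝ e (J u) = (0 : ℝ))
    (he' : ‖e'‖ = 1) (hu' : ‖u'‖ = 1) (heu' : inner ℝ e' u' = (0 : ℝ))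
    (heJ' : inner ℝ e' (J u') = (0 : ℝ)) :
    ∃ g : V ≃ₗᵢ[ℝ] V, (∀ x, g (J x) = J (g x)) ∧ g e' = e ∧ g u' = u := by
  obtain ⟨g₁, h1, h2, -⟩ := exists_refl hJ he' he
  have h3 : ‖g₁ u'‖ = 1 := by rw [g₁.norm_map, hu']
  obtain ⟨g₂, h4, h5, h6⟩ := exists_refl hJ h3 hu
  have h7 : g₂ e = e := by
    have e1 : (inner ℝ e (g₁ u') : ℝ) = 0 := by
      rw [← h2, g₁.inner_map_map, heu']
    have e2 : (inner ℝ e (J (g₁ u')) : ℝ) = 0 := by
      rw [← h2, ← h1, g₁.inner_map_map, heJ']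
    apply h6
    · rw [inner_sub_left, real_inner_comm, e1, real_inner_comm, heu, sub_zero]
    · rw [map_sub, inner_sub_left, real_inner_comm, e2, real_inner_comm, heJ, sub_zero]
  refine ⟨g₁.trans g₂, fun x => ?_, ?_, ?_⟩
  · rw [LinearIsometryEquiv.trans_apply, LinearIsometryEquiv.trans_apply, h1, h4]
  · rw [LinearIsometryEquiv.trans_apply, h2, h7]
  · rw [LinearIsometryEquiv.trans_apply, h5]

end Vale.Agent.P220.R2.H205
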